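import Vale.Agent.P088.R2.H948.Proj

/-!
# Orthogonal projection in `L²` onto the span of finitely many vector valued functions
-/

open MeasureTheory Set
open scoped RealInnerProductSpace

namespace Vale.Agent.P088.R2.H948

/-- Projection onto the span of finitely many vector valued functions in `L²(μ)^ι`. -/
theorem proj_vec {X ι J : Type*} [MeasurableSpace X] [Fintype ι] [Fintype J] (μ : Measure X)
    (v : J → ι → X → ℝ) (hv : ∀ l a, MemLp (v l a) 2 μ) :
    ∃ (d : ℕ) (c : Fin d → J → ℝ), ∀ f : ι → X → ℝ, (∀ a, MemLp (f a) 2 μ) → ∀ m,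
      ∑ a, ∫ x, (f a x - ∑ q, (∑ a', ∫ y, (∑ l, c q l * v l a' y) * f a' y ∂μ) *
          ∑ l, c q l * v l a x) ^ 2 ∂μ ≤
        ∑ a, ∫ x, (f a x - v m a x) ^ 2 ∂μ := by
  obtain ⟨d, c, hc⟩ := abs_proj (H := PiLp 2 fun _ : ι => Lp ℝ 2 μ)
    (fun l => WithLp.toLp 2 fun a => (hv l a).toLp (v l a))
  refine ⟨d, c, fun f hf m => ?_⟩
  have he : ∀ q a, MemLp (fun x => ∑ l, c q l * v l a x) 2 μ := fun q a =>
    memLp_finsetSum _ fun l _ => (hv l a).const_mul (c q l)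
  have he' : ∀ q, ∑ l, c q l • (WithLp.toLp 2 fun a => (hv l a).toLp (v l a) :
      PiLp 2 fun _ : ι => Lp ℝ 2 μ) = WithLp.toLp 2 fun a => (he q a).toLp _ := by
    intro q
    ext1 a
    refine Eq.trans ?_ (toLp_sum Finset.univ (c q) (fun l => v l a) (fun l => hv l a) (he q a))
    simp [WithLp.ofLp_sum, Finset.sum_apply]
  have h3 := hc (WithLp.toLp 2 fun a => (hf a).toLp (f a)) m
  simp only [he', PiLp.inner_apply, inner_toLp] at h3
  have hg : ∀ a, MemLp (fun x => ∑ q, (∑ a', ∫ y, (∑ l, c q l * v l a' y) * f a' y ∂μ) *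
      ∑ l, c q l * v l a x) 2 μ := fun a => memLp_finsetSum _ fun q _ => (he q a).const_mul _
  have h4 : ∑ q, (∑ a', ∫ y, (∑ l, c q l * v l a' y) * f a' y ∂μ) •
      (WithLp.toLp 2 fun a => (he q a).toLp _ : PiLp 2 fun _ : ι => Lp ℝ 2 μ) =
      WithLp.toLp 2 fun a => (hg a).toLp _ := by
    ext1 a
    refine Eq.trans ?_ (toLp_sum Finset.univ _ (fun q x => ∑ l, c q l * v l a x)
      (fun q => he q a) (hg a))
    simp [WithLp.ofLp_sum, Finset.sum_apply]
  have h5 := pow_le_pow_left₀ (norm_nonneg _) h3 2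
  rw [h4, ← WithLp.toLp_sub, ← WithLp.toLp_sub, PiLp.norm_sq_eq_of_L2, PiLp.norm_sq_eq_of_L2] at h5
  simp only [Pi.sub_apply, ← MemLp.toLp_sub, norm_sq_toLp] at h5
  exact h5

end Vale.Agent.P088.R2.H948
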